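import Crest.Agent.R71.Defs

namespace Crest.Agent.R71

open Finset

/-- the polynomial with coefficient vector `a` -/
noncomputable def codePoly {p : ℕ} {D : ℕ} (a : Fin D → ZMod p) : Polynomial (ZMod p) :=
  ∑ i : Fin D, Polynomial.C (a i) * Polynomial.X ^ (i : ℕ)

theorem codePoly_coeff {p : ℕ} {D : ℕ} (a : Fin D → ZMod p) (i : Fin D) :
    (codePoly a).coeff (i : ℕ) = a i := by
  unfold codePoly
  rw [Polynomial.finsetSum_coeff]
  simp only [Polynomial.coeff_C_mul, Polynomial.coeff_X_pow]
  rw [Finset.sum_eq_single i]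
  · simp
  · intro j _ hj
    have : (i : ℕ) ≠ (j : ℕ) := fun h => hj (Fin.ext h.symm)
    simp [this]
  · intro h; exact absurd (Finset.mem_univ i) h

theorem codePoly_degree_lt {p : ℕ} [Fact p.Prime] {D : ℕ} (a : Fin D → ZMod p) :
    (codePoly a).degree < (D : WithBot ℕ) := by
  unfold codePoly
  refine lt_of_le_of_lt (Polynomial.degree_sum_le _ _) ?_
  rw [Finset.sup_lt_iff (by exact WithBot.bot_lt_coe D)]
  intro i _
  refine lt_of_le_of_lt (Polynomial.degree_C_mul_X_pow_le _ _) ?_
  exact_mod_cast i.2

theorem agr_code_lt {m k D p : ℕ} [Fact p.Prime] (ι : Pt m k → ZMod p)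
    (hι : Function.Injective ι) (a b : Fin D → ZMod p) (hab : a ≠ b) :
    (agr (fun x => (codePoly a).eval (ι x)) (fun x => (codePoly b).eval (ι x))).card < D := by
  have hne : codePoly a - codePoly b ≠ 0 := by
    intro h
    apply hab
    funext i
    have h1 := congrArg (fun q => Polynomial.coeff q (i : ℕ)) h
    simp only [Polynomial.coeff_sub, codePoly_coeff, Polynomial.coeff_zero] at h1
    exact sub_eq_zero.mp h1
  have hdeg : (codePoly a - codePoly b).degree < (D : WithBot ℕ) :=
    lt_of_le_of_lt (Polynomial.degree_sub_le _ _)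
      (max_lt (codePoly_degree_lt a) (codePoly_degree_lt b))
  have hnat : (codePoly a - codePoly b).natDegree < D :=
    (Polynomial.natDegree_lt_iff_degree_lt hne).mpr hdeg
  have hroots : (codePoly a - codePoly b).roots.toFinset.card ≤
      (codePoly a - codePoly b).natDegree :=
    le_trans (Multiset.toFinset_card_le _) (Polynomial.card_roots' _)
  refine lt_of_le_of_lt ?_ (lt_of_le_of_lt hroots hnat)
  rw [← Finset.card_image_of_injective _ hι]
  apply Finset.card_le_card
  intro y hy
  rw [Finset.mem_image] at hy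
  obtain ⟨x, hx, rfl⟩ := hy
  rw [mem_agr] at hx
  rw [Multiset.mem_toFinset, Polynomial.mem_roots hne, Polynomial.IsRoot.def,
    Polynomial.eval_sub, sub_eq_zero]
  exact hx

/-- PIECE R. Reed–Solomon code: evaluate the polynomials of degree `< D` over `ZMod p` at
`(k+1)^m ≤ p` distinct points (any injection `Pt m k → ZMod p`). Two distinct polynomials agree at
at most `D - 1` points. -/
theorem exists_code (m k D : ℕ) (hD : 2 * D ≤ (k + 1) ^ m) (p : ℕ) [Fact p.Prime]
    (hp : (k + 1) ^ m ≤ p) :
    ∃ W : Finset (Pt m k → ZMod p), W.card = p ^ D ∧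
      ∀ w ∈ W, ∀ w' ∈ W, w ≠ w' → 2 * (agr w w').card ≤ (k + 1) ^ m := by
  classical
  have hcard : Fintype.card (Pt m k) ≤ Fintype.card (ZMod p) := by
    rw [ZMod.card]
    simpa [Pt] using hp
  obtain ⟨ι⟩ := Function.Embedding.nonempty_of_card_le hcard
  let f : (Fin D → ZMod p) → (Pt m k → ZMod p) := fun a x => (codePoly a).eval (ι x)
  have hf : Function.Injective f := by
    intro a b hab
    by_contra hne
    have h1 := agr_code_lt ι ι.injective a b hne
    have h2 : (agr (f a) (f b)).card < D := h1
    rw [hab, agr_self, Finset.card_univ] at h2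
    have h3 : Fintype.card (Pt m k) = (k + 1) ^ m := by simp [Pt]
    omega
  refine ⟨Finset.univ.image f, ?_, ?_⟩
  · rw [Finset.card_image_of_injective _ hf, Finset.card_univ]
    simp [ZMod.card]
  · intro w hw w' hw' hne
    rw [Finset.mem_image] at hw hw'
    obtain ⟨a, -, rfl⟩ := hw
    obtain ⟨b, -, rfl⟩ := hw'
    have hab : a ≠ b := fun h => hne (by rw [h])
    have h1 : (agr (f a) (f b)).card < D := agr_code_lt ι ι.injective a b hab
    omega

end Crest.Agent.R71
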