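import Crest.Agent.R71.Defs

namespace Crest.Agent.R71

open Finset

section

variable {m k B : ℕ} {Q : Type} [Fintype Q] [DecidableEq Q]

/-- words on `J u` -/
abbrev RW (m k : ℕ) (u : Fin m) (Q : Type) : Type := {j : Pt m k // j u = 0} → Q

/-- agreement set of a word with a word on `J u` -/
def agrJ (u : Fin m) (a : Pt m k → Q) (b : RW m k u Q) : Finset (Pt m k) :=
  univ.filter (fun j => ∃ h : j u = 0, a j = b ⟨j, h⟩)

omit [Fintype Q] in
theorem mem_agrJ {u : Fin m} {a : Pt m k → Q} {b : RW m k u Q} {j : Pt m k} :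
    j ∈ agrJ u a b ↔ ∃ h : j u = 0, a j = b ⟨j, h⟩ := by
  simp [agrJ]

/-- restriction of a word to `J u` -/
def rst (u : Fin m) (w : Pt m k → Q) : RW m k u Q := fun j => w j.1

omit [Fintype Q] in
theorem agrJ_rst (u : Fin m) (a w : Pt m k → Q) : agrJ u a (rst u w) = agr a w ∩ J u := by
  ext j
  simp only [mem_agrJ, rst, mem_inter, mem_agr, mem_J]
  constructor
  · rintro ⟨h, h'⟩; exact ⟨h', h⟩
  · rintro ⟨h, h'⟩; exact ⟨h', h⟩

/-- the set of points where `a` is known from the list `S` -/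
def CS (u : Fin m) (S : Finset (RW m k u Q)) (a : Pt m k → Q) : Finset (Pt m k) :=
  S.biUnion (agrJ u a)

omit [Fintype Q] in
theorem CS_subset_J (u : Fin m) (S : Finset (RW m k u Q)) (a : Pt m k → Q) :
    CS u S a ⊆ J u := by
  intro j hj
  simp only [CS, mem_biUnion] at hj
  obtain ⟨b, _, hb⟩ := hj
  rw [mem_agrJ] at hb
  rw [mem_J]
  exact hb.1

omit [Fintype Q] in
theorem CS_insert (u : Fin m) (S : Finset (RW m k u Q)) (a w : Pt m k → Q) :
    CS u (insert (rst u w) S) a = (agr a w ∩ J u) ∪ CS u S a := by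
  unfold CS
  rw [Finset.biUnion_insert, agrJ_rst]

omit [Fintype Q] in
theorem CS_mono (u : Fin m) {S S' : Finset (RW m k u Q)} (h : S ⊆ S') (a : Pt m k → Q) :
    CS u S a ⊆ CS u S' a := Finset.biUnion_subset_biUnion_of_subset_left _ h

/-- potential -/
noncomputable def pot (B : ℕ) (u : Fin m) (lam : Col m k B Q → ℝ) (S : Finset (RW m k u Q)) : ℝ :=
  ∑ c : Col m k B Q, lam c * (lev B c.1.1 (CS u S c.2) : ℝ)

/-- value restricted to `J u` -/
noncomputable def valJ (B : ℕ) (u : Fin m) (lam : Col m k B Q → ℝ) (w : Pt m k → Q) : ℝ :=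
  ∑ c : Col m k B Q, lam c * (lev B c.1.1 (agr c.2 w ∩ J u) : ℝ)

/-- predicted value -/
noncomputable def pred (B : ℕ) (u : Fin m) (lam : Col m k B Q → ℝ) (S : Finset (RW m k u Q))
    (w : Pt m k → Q) : ℝ :=
  ∑ c : Col m k B Q, lam c * (lev B c.1.1 (agr c.2 w ∩ CS u S c.2) : ℝ)

theorem pred_le_valJ (u : Fin m) (lam : Col m k B Q → ℝ) (h0 : ∀ c, 0 ≤ lam c)
    (S : Finset (RW m k u Q)) (w : Pt m k → Q) : pred B u lam S w ≤ valJ B u lam w := by
  unfold pred valJ
  apply Finset.sum_le_sum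
  intro c _
  apply mul_le_mul_of_nonneg_left _ (h0 c)
  exact_mod_cast lev_mono B c.1.1
    (Finset.inter_subset_inter (Finset.Subset.refl _) (CS_subset_J u S c.2))

theorem pred_mono (u : Fin m) (lam : Col m k B Q → ℝ) (h0 : ∀ c, 0 ≤ lam c)
    {S S' : Finset (RW m k u Q)} (h : S ⊆ S') (w : Pt m k → Q) :
    pred B u lam S w ≤ pred B u lam S' w := by
  unfold pred
  apply Finset.sum_le_sum
  intro c _
  apply mul_le_mul_of_nonneg_left _ (h0 c)
  exact_mod_cast lev_mono B c.1.1
    (Finset.inter_subset_inter (Finset.Subset.refl _) (CS_mono u h c.2))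

theorem pot_le (u : Fin m) (lam : Col m k B Q → ℝ) (h0 : ∀ c, 0 ≤ lam c)
    (h1 : ∑ c, lam c ≤ 1) (S : Finset (RW m k u Q)) : pot B u lam S ≤ B := by
  unfold pot
  calc ∑ c : Col m k B Q, lam c * (lev B c.1.1 (CS u S c.2) : ℝ)
      ≤ ∑ c : Col m k B Q, lam c * (B : ℝ) := by
        apply Finset.sum_le_sum
        intro c _
        apply mul_le_mul_of_nonneg_left _ (h0 c)
        exact_mod_cast lev_le B c.1.1 _
    _ = (∑ c : Col m k B Q, lam c) * B := by rw [Finset.sum_mul]
    _ ≤ 1 * B := by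
        apply mul_le_mul_of_nonneg_right h1 (by positivity)
    _ = B := one_mul _

theorem pot_nonneg (u : Fin m) (lam : Col m k B Q → ℝ) (h0 : ∀ c, 0 ≤ lam c)
    (S : Finset (RW m k u Q)) : 0 ≤ pot B u lam S := by
  unfold pot
  apply Finset.sum_nonneg
  intro c _
  exact mul_nonneg (h0 c) (by positivity)

/-- main inequality: the error is controlled by the increase of the potential -/
theorem error_le (u : Fin m) (lam : Col m k B Q → ℝ) (h0 : ∀ c, 0 ≤ lam c)
    (h1 : ∑ c, lam c ≤ 1) (S : Finset (RW m k u Q)) (w : Pt m k → Q) :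
    valJ B u lam w - pred B u lam S w ≤
      pot B u lam (insert (rst u w) S) - pot B u lam S + 1 := by
  have key : ∀ c : Col m k B Q,
      lam c * (lev B c.1.1 (agr c.2 w ∩ J u) : ℝ) + lam c * (lev B c.1.1 (CS u S c.2) : ℝ) ≤
      lam c * (lev B c.1.1 (agr c.2 w ∩ CS u S c.2) : ℝ) +
        lam c * (lev B c.1.1 (CS u (insert (rst u w) S) c.2) : ℝ) + lam c := by
    intro c
    have h2 := lev_supermodular B c.1.1 (agr c.2 w ∩ J u) (CS u S c.2)
    have h3 : (agr c.2 w ∩ J u) ∩ CS u S c.2 = agr c.2 w ∩ CS u S c.2 := by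
      rw [Finset.inter_assoc, Finset.inter_eq_right.mpr (CS_subset_J u S c.2)]
    rw [h3, ← CS_insert] at h2
    have h4 : (lev B c.1.1 (agr c.2 w ∩ J u) : ℝ) + (lev B c.1.1 (CS u S c.2) : ℝ) ≤
        (lev B c.1.1 (agr c.2 w ∩ CS u S c.2) : ℝ) +
        (lev B c.1.1 (CS u (insert (rst u w) S) c.2) : ℝ) + 1 := by exact_mod_cast h2
    have h5 := mul_le_mul_of_nonneg_left h4 (h0 c)
    nlinarith [h5]
  have hsum := Finset.sum_le_sum (fun c (_ : c ∈ (univ : Finset (Col m k B Q))) => key c)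
  simp only [Finset.sum_add_distrib] at hsum
  unfold valJ pred pot
  linarith

/-- greedy choice of the list -/
theorem exists_list (u : Fin m) (lam : Col m k B Q → ℝ) (h0 : ∀ c, 0 ≤ lam c)
    (h1 : ∑ c, lam c ≤ 1) :
    ∃ S : Finset (RW m k u Q), S.card ≤ B ∧ ∀ w, valJ B u lam w - pred B u lam S w ≤ 2 := by
  classical
  have key : ∀ n : ℕ, ∃ S : Finset (RW m k u Q), S.card ≤ n ∧
      ((∀ w, valJ B u lam w - pred B u lam S w ≤ 2) ∨ (n : ℝ) ≤ pot B u lam S) := by
    intro n
    induction n with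
    | zero => exact ⟨∅, by simp, Or.inr (by simpa using pot_nonneg u lam h0 ∅)⟩
    | succ n ih =>
      obtain ⟨S, hS, h⟩ := ih
      rcases h with h | h
      · exact ⟨S, by omega, Or.inl h⟩
      · by_cases hw : ∀ w, valJ B u lam w - pred B u lam S w ≤ 2
        · exact ⟨S, by omega, Or.inl hw⟩
        · push Not at hw
          obtain ⟨w, hw⟩ := hw
          refine ⟨insert (rst u w) S, le_trans (Finset.card_insert_le _ _) (by omega), Or.inr ?_⟩
          have := error_le u lam h0 h1 S w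
          push_cast
          linarith
  obtain ⟨S, hS, h⟩ := key B
  refine ⟨S, hS, ?_⟩
  rcases h with h | h
  · exact h
  · intro w
    by_contra hcon
    push Not at hcon
    have h2 := error_le u lam h0 h1 S w
    have h3 := pot_le u lam h0 h1 (insert (rst u w) S)
    linarith

omit [DecidableEq Q] in
/-- choice of `u` -/
theorem exists_u (hm : 0 < m) (lam : Col m k B Q → ℝ) (h0 : ∀ c, 0 ≤ lam c)
    (h1 : ∑ c, lam c ≤ 1) :
    ∃ u : Fin m, (∑ c : Col m k B Q, if u ∈ c.1.1 then lam c else 0) * B ≤ 1 := by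
  by_contra hcon
  push Not at hcon
  have h2 : (m : ℝ) < ∑ u : Fin m, (∑ c : Col m k B Q, if u ∈ c.1.1 then lam c else 0) * B := by
    have : ∑ u : Fin m, (1 : ℝ) = m := by simp
    rw [← this]
    apply Finset.sum_lt_sum_of_nonempty
    · exact ⟨⟨0, hm⟩, mem_univ _⟩
    · intro u _; exact hcon u
  rw [← Finset.sum_mul, Finset.sum_comm] at h2
  have h3 : ∀ c : Col m k B Q, (∑ u : Fin m, if u ∈ c.1.1 then lam c else 0) =
      (c.1.1.card : ℝ) * lam c := by
    intro c
    rw [← Finset.sum_filter]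
    rw [Finset.filter_mem_eq_inter, Finset.univ_inter]
    simp
  simp only [h3] at h2
  have h4 : (∑ c : Col m k B Q, (c.1.1.card : ℝ) * lam c) * B ≤ m := by
    rw [Finset.sum_mul]
    calc ∑ c : Col m k B Q, (c.1.1.card : ℝ) * lam c * B
        ≤ ∑ c : Col m k B Q, (m : ℝ) * lam c := by
          apply Finset.sum_le_sum
          intro c _
          have h5 : (c.1.1.card : ℝ) * B ≤ m := by exact_mod_cast c.1.2
          have h6 := mul_le_mul_of_nonneg_right h5 (h0 c)
          linarith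
      _ = m * ∑ c : Col m k B Q, lam c := by rw [Finset.mul_sum]
      _ ≤ m * 1 := mul_le_mul_of_nonneg_left h1 (by positivity)
      _ = m := mul_one _
  linarith

theorem val_sub_valJ_le (u : Fin m) (lam : Col m k B Q → ℝ) (h0 : ∀ c, 0 ≤ lam c)
    (h1 : ∑ c, lam c ≤ 1)
    (hu : (∑ c : Col m k B Q, if u ∈ c.1.1 then lam c else 0) * B ≤ 1) (w : Pt m k → Q) :
    val B lam w - valJ B u lam w ≤ 2 := by
  have key : ∀ c : Col m k B Q, lam c * (lev B c.1.1 (agr c.2 w) : ℝ) ≤
      lam c * (lev B c.1.1 (agr c.2 w ∩ J u) : ℝ) + lam c +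
        (if u ∈ c.1.1 then lam c else 0) * B := by
    intro c
    by_cases hc : u ∈ c.1.1
    · simp only [hc, if_true]
      have h2 : (lev B c.1.1 (agr c.2 w) : ℝ) ≤ B := by exact_mod_cast lev_le B _ _
      have h3 := mul_le_mul_of_nonneg_left h2 (h0 c)
      have h4 : 0 ≤ lam c * (lev B c.1.1 (agr c.2 w ∩ J u) : ℝ) :=
        mul_nonneg (h0 c) (by positivity)
      linarith [h0 c]
    · simp only [hc, if_false]
      have h2 : (lev B c.1.1 (agr c.2 w) : ℝ) ≤ (lev B c.1.1 (agr c.2 w ∩ J u) : ℝ) + 1 := by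
        exact_mod_cast lev_inter_J B c.1.1 (agr c.2 w) u hc
      have h3 := mul_le_mul_of_nonneg_left h2 (h0 c)
      linarith
  have hsum := Finset.sum_le_sum (fun c (_ : c ∈ (univ : Finset (Col m k B Q))) => key c)
  simp only [Finset.sum_add_distrib, ← Finset.sum_mul] at hsum
  unfold val valJ
  linarith

theorem valJ_le_val (u : Fin m) (lam : Col m k B Q → ℝ) (h0 : ∀ c, 0 ≤ lam c)
    (w : Pt m k → Q) : valJ B u lam w ≤ val B lam w := by
  unfold val valJ
  apply Finset.sum_le_sum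
  intro c _
  apply mul_le_mul_of_nonneg_left _ (h0 c)
  exact_mod_cast lev_mono B c.1.1 Finset.inter_subset_left

/-- signatures -/
abbrev Sig (m k B : ℕ) : Type := Forb m B × (Fin B → Finset (Pt m k))

/-- signature of a column with respect to a list -/
def sig (u : Fin m) (f : Fin B → RW m k u Q) (c : Col m k B Q) : Sig m k B :=
  (c.1, fun i => agrJ u c.2 (f i))

/-- the law of the signature -/
noncomputable def nu (u : Fin m) (f : Fin B → RW m k u Q) (lam : Col m k B Q → ℝ)
    (s : Sig m k B) : ℝ :=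
  ∑ c : Col m k B Q, if sig u f c = s then lam c else 0

/-- the level predicted from the signature -/
def glev (u : Fin m) (f : Fin B → RW m k u Q) (w : Pt m k → Q) (s : Sig m k B) : ℕ :=
  lev B s.1.1 (univ.biUnion (fun i => s.2 i ∩ agrJ u w (f i)))

omit [Fintype Q] in
theorem glev_sig (u : Fin m) (f : Fin B → RW m k u Q) (w : Pt m k → Q) (c : Col m k B Q) :
    glev u f w (sig u f c) = lev B c.1.1 (agr c.2 w ∩ CS u (univ.image f) c.2) := by
  unfold glev sig
  congr 1
  ext j
  simp only [mem_biUnion, mem_univ, true_and, mem_inter, mem_agrJ, CS, mem_image, mem_agr]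
  constructor
  · rintro ⟨i, ⟨h, h1⟩, ⟨h', h2⟩⟩
    exact ⟨by rw [h1, h2], f i, ⟨i, rfl⟩, h, h1⟩
  · rintro ⟨h1, b, ⟨i, hi⟩, h, h2⟩
    subst hi
    exact ⟨i, ⟨h, h2⟩, ⟨h, by rw [← h1, h2]⟩⟩

theorem pred_eq (u : Fin m) (f : Fin B → RW m k u Q) (lam : Col m k B Q → ℝ)
    (w : Pt m k → Q) :
    pred B u lam (univ.image f) w = ∑ s : Sig m k B, nu u f lam s * (glev u f w s : ℝ) := by
  unfold pred nu
  simp only [← glev_sig, Finset.sum_mul]
  rw [Finset.sum_comm]
  apply Finset.sum_congr rfl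
  intro c _
  rw [Finset.sum_eq_single (sig u f c)]
  · simp
  · intro s _ hs
    rw [if_neg (Ne.symm hs), zero_mul]
  · intro h; exact absurd (mem_univ _) h

theorem nu_nonneg (u : Fin m) (f : Fin B → RW m k u Q) (lam : Col m k B Q → ℝ)
    (h0 : ∀ c, 0 ≤ lam c) (s : Sig m k B) : 0 ≤ nu u f lam s := by
  unfold nu
  apply Finset.sum_nonneg
  intro c _
  split_ifs
  · exact h0 c
  · exact le_refl _

theorem nu_le_one (u : Fin m) (f : Fin B → RW m k u Q) (lam : Col m k B Q → ℝ)
    (h0 : ∀ c, 0 ≤ lam c) (h1 : ∑ c, lam c ≤ 1) (s : Sig m k B) : nu u f lam s ≤ 1 := by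
  refine le_trans ?_ h1
  unfold nu
  apply Finset.sum_le_sum
  intro c _
  split_ifs
  · exact le_refl _
  · exact h0 c

end

instance instFC {m k B N : ℕ} {Q : Type} [Fintype Q] [DecidableEq Q] (u : Fin m) :
    Fintype ((Fin B → RW m k u Q) × (Sig m k B → Fin (N + 1))) :=
  @instFintypeProd _ _ inferInstance inferInstance

/-- classes -/
abbrev Cls (m k B N : ℕ) (Q : Type) : Type :=
  Σ u : Fin m, (Fin B → RW m k u Q) × (Sig m k B → Fin (N + 1))

theorem card_J (m k : ℕ) (u : Fin m) :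
    Fintype.card {j : Pt m k // j u = 0} ≤ (k + 1) ^ (m - 1) := by
  have h1 : Fintype.card (Fin (k + 1) × {j : Pt m k // j u = 0}) ≤ Fintype.card (Pt m k) := by
    apply Fintype.card_le_of_injective
      (fun p : Fin (k + 1) × {j : Pt m k // j u = 0} => Function.update p.2.1 u p.1)
    rintro ⟨c, j, hj⟩ ⟨c', j', hj'⟩ h
    simp only at h
    have hc : c = c' := by
      have := congrFun h u
      simpa using this
    have hjj : j = j' := by
      funext v
      by_cases hv : v = u
      · subst hv; rw [hj, hj']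
      · have := congrFun h v
        simpa [hv] using this
    subst hc hjj
    rfl
  rw [Fintype.card_prod, Fintype.card_fin] at h1
  have h2 : Fintype.card (Pt m k) = (k + 1) ^ m := by simp [Pt]
  rw [h2] at h1
  have hm : (k + 1) ^ m = (k + 1) * (k + 1) ^ (m - 1) := by
    have := u.pos
    rw [← pow_succ']
    congr 1
    omega
  rw [hm] at h1
  exact Nat.le_of_mul_le_mul_left h1 (by positivity)

/-- PIECE C (helper77). -/
theorem cover (m k B : ℕ) (hm : 0 < m) (hB : 0 < B) : ∃ C : ℕ, 0 < C ∧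
    ∀ (Q : Type) [Fintype Q] [DecidableEq Q] [Nonempty Q],
      ∃ (Γ : Type) (_ : Fintype Γ) (cls : (Col m k B Q → ℝ) → Γ),
        Fintype.card Γ ≤ C * (Fintype.card Q) ^ (B * (k + 1) ^ (m - 1)) ∧
        ∀ y y' : Col m k B Q → ℝ, (∀ c, 0 ≤ y c) → ∑ c, y c ≤ 1 → (∀ c, 0 ≤ y' c) →
          ∑ c, y' c ≤ 1 → cls y = cls y' → ∀ w, |val B y w - val B y' w| ≤ 5 := by
  classical
  obtain ⟨N, hN⟩ : ∃ N : ℕ, N = B * Fintype.card (Sig m k B) := ⟨_, rfl⟩
  refine ⟨m * (N + 1) ^ Fintype.card (Sig m k B), by positivity, ?_⟩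
  intro Q _ _ _
  have hSne : Nonempty (Sig m k B) := ⟨(⟨∅, by simp⟩, fun _ => ∅)⟩
  have hNpos : 0 < N := by
    rw [hN]
    exact Nat.mul_pos hB Fintype.card_pos
  have hne : Nonempty (Cls m k B N Q) :=
    ⟨⟨⟨0, hm⟩, (fun _ _ => Classical.arbitrary Q, fun _ => 0)⟩⟩
  -- the good classes of a weight
  let disc : ∀ (u : Fin m) (f : Fin B → RW m k u Q) (lam : Col m k B Q → ℝ) (s : Sig m k B), ℕ :=
    fun u f lam s => ⌊(N : ℝ) * nu u f lam s⌋₊
  let Good : (Col m k B Q → ℝ) → Cls m k B N Q → Prop := fun lam γ =>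
    (∀ w, val B lam w - pred B γ.1 lam (univ.image γ.2.1) w ≤ 4) ∧
    (∀ w, pred B γ.1 lam (univ.image γ.2.1) w ≤ val B lam w) ∧
    (∀ s, ((γ.2.2 s : Fin (N + 1)) : ℕ) = disc γ.1 γ.2.1 lam s)
  have hex : ∀ lam : Col m k B Q → ℝ, ∃ γ : Cls m k B N Q,
      (∀ c, 0 ≤ lam c) → ∑ c, lam c ≤ 1 → Good lam γ := by
    intro lam
    by_cases hyp : (∀ c, 0 ≤ lam c) ∧ ∑ c, lam c ≤ 1
    · obtain ⟨h0, h1⟩ := hyp
      obtain ⟨u, hu⟩ := exists_u hm lam h0 h1
      obtain ⟨S, hS, hSw⟩ := exists_list u lam h0 h1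
      -- a function enumerating `S`
      obtain ⟨f, hf⟩ : ∃ f : Fin B → RW m k u Q, S ⊆ univ.image f := by
        have e : S ≃ Fin S.card := S.equivFin
        refine ⟨fun i => if h : (i : ℕ) < S.card then (e.symm ⟨i, h⟩ : S).1
          else fun _ => Classical.arbitrary Q, ?_⟩
        intro b hb
        rw [mem_image]
        refine ⟨⟨(e ⟨b, hb⟩ : ℕ), lt_of_lt_of_le (e ⟨b, hb⟩).2 hS⟩, mem_univ _, ?_⟩
        simp
      refine ⟨⟨u, (f, fun s => ⟨disc u f lam s, ?_⟩)⟩, ?_⟩
      · rw [Nat.lt_succ_iff]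
        have h2 : (N : ℝ) * nu u f lam s ≤ (N : ℝ) := by
          have := mul_le_mul_of_nonneg_left (nu_le_one u f lam h0 h1 s)
            (by positivity : (0 : ℝ) ≤ (N : ℝ))
          linarith
        have h3 : ⌊(N : ℝ) * nu u f lam s⌋₊ ≤ ⌊(N : ℝ)⌋₊ := Nat.floor_le_floor h2
        simpa using h3
      · intro _ _
        refine ⟨?_, ?_, ?_⟩
        · intro w
          have h2 := val_sub_valJ_le u lam h0 h1 hu w
          have h3 := hSw w
          have h4 := pred_mono u lam h0 hf w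
          show val B lam w - pred B u lam (univ.image f) w ≤ 4
          linarith
        · intro w
          show pred B u lam (univ.image f) w ≤ val B lam w
          exact le_trans (pred_le_valJ u lam h0 _ w) (valJ_le_val u lam h0 w)
        · intro s
          rfl
    · refine ⟨Classical.arbitrary _, fun h0 h1 => absurd ⟨h0, h1⟩ hyp⟩
  choose cls hcls using hex
  refine ⟨Cls m k B N Q, inferInstance, cls, ?_, ?_⟩
  · -- cardinality
    rw [Fintype.card_sigma]
    have h2 : ∀ u : Fin m, Fintype.card ((Fin B → RW m k u Q) × (Sig m k B → Fin (N + 1))) ≤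
        (N + 1) ^ Fintype.card (Sig m k B) * Fintype.card Q ^ (B * (k + 1) ^ (m - 1)) := by
      intro u
      rw [Fintype.card_prod, mul_comm]
      apply Nat.mul_le_mul
      · rw [Fintype.card_fun, Fintype.card_fin]
      · rw [Fintype.card_fun, Fintype.card_fun, Fintype.card_fin, ← pow_mul]
        apply Nat.pow_le_pow_right Fintype.card_pos
        rw [mul_comm]
        exact Nat.mul_le_mul_left _ (card_J m k u)
    calc ∑ u : Fin m, Fintype.card ((Fin B → RW m k u Q) × (Sig m k B → Fin (N + 1)))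
        ≤ ∑ u : Fin m, (N + 1) ^ Fintype.card (Sig m k B) *
            Fintype.card Q ^ (B * (k + 1) ^ (m - 1)) := Finset.sum_le_sum (fun u _ => h2 u)
      _ = _ := by
        rw [Finset.sum_const, Finset.card_univ, Fintype.card_fin, smul_eq_mul]
        ring
  · intro y y' hy0 hy1 hy0' hy1' hyy w
    have hg := hcls y hy0 hy1
    have hg' := hcls y' hy0' hy1'
    rw [← hyy] at hg'
    generalize cls y = γ at hg hg'
    obtain ⟨u, f, d⟩ := γ
    obtain ⟨ha, hb, hc⟩ := hg
    obtain ⟨ha', hb', hc'⟩ := hg'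
    have ha := ha w
    have hb := hb w
    have ha' := ha' w
    have hb' := hb' w
    simp only at ha hb ha' hb' hc hc'
    -- the predictions are close
    have hnu : ∀ s, |nu u f y s - nu u f y' s| ≤ 1 / N := by
      intro s
      have h2 : ⌊(N : ℝ) * nu u f y s⌋₊ = ⌊(N : ℝ) * nu u f y' s⌋₊ := by
        have h3 := hc s
        have h4 := hc' s
        simp only [disc] at h3 h4
        rw [← h3, ← h4]
      have hNR : (0 : ℝ) < N := by exact_mod_cast hNpos
      have p0 := mul_nonneg hNR.le (nu_nonneg u f y hy0 s)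
      have p0' := mul_nonneg hNR.le (nu_nonneg u f y' hy0' s)
      have h5 := Nat.floor_le p0
      have h6 := Nat.lt_floor_add_one ((N : ℝ) * nu u f y s)
      have h5' := Nat.floor_le p0'
      have h6' := Nat.lt_floor_add_one ((N : ℝ) * nu u f y' s)
      rw [← h2] at h5' h6'
      rw [abs_le]
      constructor
      · rw [neg_le_iff_add_nonneg, ← sub_nonneg]
        have h7 : 0 ≤ (nu u f y s - nu u f y' s + 1 / N - 0) * N := by
          have : (1 : ℝ) / N * N = 1 := by field_simp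
          nlinarith
        exact nonneg_of_mul_nonneg_left h7 hNR
      · rw [le_div_iff₀ hNR]
        nlinarith
    have hpred : |pred B u y (univ.image f) w - pred B u y' (univ.image f) w| ≤ 1 := by
      rw [pred_eq, pred_eq, ← Finset.sum_sub_distrib]
      refine le_trans (Finset.abs_sum_le_sum_abs _ _) ?_
      calc ∑ s : Sig m k B, |nu u f y s * (glev u f w s : ℝ) - nu u f y' s * (glev u f w s : ℝ)|
          ≤ ∑ s : Sig m k B, (1 / N) * (B : ℝ) := by
            apply Finset.sum_le_sum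
            intro s _
            rw [← sub_mul, abs_mul]
            apply mul_le_mul (hnu s) _ (abs_nonneg _) (by positivity)
            rw [abs_of_nonneg (by positivity)]
            exact_mod_cast lev_le B _ _
        _ = 1 := by
            rw [Finset.sum_const, Finset.card_univ, nsmul_eq_mul, hN]
            have h7 : (0 : ℝ) < (B : ℝ) := by exact_mod_cast hB
            have h8 : (0 : ℝ) < (Fintype.card (Sig m k B) : ℝ) := by
              exact_mod_cast Fintype.card_pos
            push_cast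
            field_simp
    rw [abs_le] at hpred ⊢
    constructor <;> linarith [hpred.1, hpred.2]

end Crest.Agent.R71
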