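import Mathlib

/-!
Row 71 (S0094): definitions and basic facts.

Points are functions `Fin m → Fin (k+1)`; `J u` is the set of points with `u`-coordinate `0`,
`Jset e` the intersection of the `J u`, `u ∈ e`.
`lev B F Z` is the level of the set `Z` as seen by `F`: the largest `B - size |e|` such that
`e` is disjoint from `F` and `Jset e ⊆ Z`.
-/

namespace Crest.Agent.R71

open Finset

/-- points -/
abbrev Pt (m k : ℕ) : Type := Fin m → Fin (k + 1)

variable {m k : ℕ}

/-- the points all of whose coordinates in `e` vanish -/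
def Jset (e : Finset (Fin m)) : Finset (Pt m k) :=
  univ.filter (fun j => ∀ u ∈ e, j u = 0)

/-- the points whose `u`-coordinate vanishes -/
def J (u : Fin m) : Finset (Pt m k) := univ.filter (fun j => j u = 0)

theorem mem_Jset {e : Finset (Fin m)} {j : Pt m k} : j ∈ Jset e ↔ ∀ u ∈ e, j u = 0 := by
  simp [Jset]

theorem mem_J {u : Fin m} {j : Pt m k} : j ∈ (J u : Finset (Pt m k)) ↔ j u = 0 := by
  simp [J]

theorem Jset_empty : (Jset ∅ : Finset (Pt m k)) = univ := by
  ext j; simp [mem_Jset]

theorem Jset_union (e e' : Finset (Fin m)) :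
    (Jset (e ∪ e') : Finset (Pt m k)) = Jset e ∩ Jset e' := by
  ext j
  simp only [mem_Jset, mem_inter, mem_union]
  constructor
  · intro h; exact ⟨fun u hu => h u (Or.inl hu), fun u hu => h u (Or.inr hu)⟩
  · rintro ⟨h1, h2⟩ u (hu | hu)
    · exact h1 u hu
    · exact h2 u hu

theorem Jset_singleton (u : Fin m) : (Jset {u} : Finset (Pt m k)) = J u := by
  ext j; simp [mem_Jset, mem_J]

/-- the level of `Z` as seen by `F` -/
def lev (B : ℕ) (F : Finset (Fin m)) (Z : Finset (Pt m k)) : ℕ :=
  ((univ : Finset (Finset (Fin m))).filter (fun e => Disjoint e F ∧ Jset e ⊆ Z)).sup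
    (fun e => B - Nat.size e.card)

theorem le_lev (B : ℕ) {F : Finset (Fin m)} {Z : Finset (Pt m k)} {e : Finset (Fin m)}
    (h1 : Disjoint e F) (h2 : Jset e ⊆ Z) : B - Nat.size e.card ≤ lev B F Z := by
  unfold lev
  apply Finset.le_sup (f := fun e : Finset (Fin m) => B - Nat.size e.card)
  simp [h1, h2]

/-- a positive level is attained -/
theorem exists_lev (B : ℕ) (F : Finset (Fin m)) (Z : Finset (Pt m k)) (h : 0 < lev B F Z) :
    ∃ e : Finset (Fin m), Disjoint e F ∧ Jset e ⊆ Z ∧ lev B F Z = B - Nat.size e.card := by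
  unfold lev at h ⊢
  have hne : ((univ : Finset (Finset (Fin m))).filter
      (fun e => Disjoint e F ∧ Jset e ⊆ Z)).Nonempty := by
    by_contra hcon
    rw [Finset.not_nonempty_iff_eq_empty] at hcon
    rw [hcon] at h
    simp at h
  obtain ⟨e, he, hsup⟩ := Finset.exists_mem_eq_sup _ hne (fun e => B - Nat.size e.card)
  rw [mem_filter] at he
  exact ⟨e, he.2.1, he.2.2, hsup⟩

theorem lev_le (B : ℕ) (F : Finset (Fin m)) (Z : Finset (Pt m k)) : lev B F Z ≤ B := by
  unfold lev
  apply Finset.sup_le
  intro e _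
  exact Nat.sub_le _ _

theorem lev_univ (B : ℕ) (F : Finset (Fin m)) : lev B F (univ : Finset (Pt m k)) = B := by
  apply le_antisymm (lev_le _ _ _)
  have := le_lev B (F := F) (Z := (univ : Finset (Pt m k))) (e := ∅) (by simp) (by simp)
  simpa using this

theorem lev_mono (B : ℕ) (F : Finset (Fin m)) {Z Z' : Finset (Pt m k)} (h : Z ⊆ Z') :
    lev B F Z ≤ lev B F Z' := by
  rcases Nat.eq_zero_or_pos (lev B F Z) with h0 | h0
  · rw [h0]; exact Nat.zero_le _
  · obtain ⟨e, h1, h2, h3⟩ := exists_lev B F Z h0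
    rw [h3]
    exact le_lev B h1 (h2.trans h)

theorem size_mono {a b : ℕ} (h : a ≤ b) : Nat.size a ≤ Nat.size b := Nat.size_le_size h

theorem size_two_mul_le (t : ℕ) : Nat.size (2 * t) ≤ Nat.size t + 1 := by
  rw [Nat.size_le]
  have := Nat.lt_size_self t
  rw [pow_succ]
  omega

theorem size_succ_le (t : ℕ) : Nat.size (t + 1) ≤ Nat.size t + 1 := by
  rw [Nat.size_le]
  have := Nat.lt_size_self t
  rw [pow_succ]
  omega

/-- restricting to `J u`, `u ∉ F`, costs at most one level -/
theorem lev_inter_J (B : ℕ) (F : Finset (Fin m)) (Z : Finset (Pt m k)) (u : Fin m) (hu : u ∉ F) :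
    lev B F Z ≤ lev B F (Z ∩ J u) + 1 := by
  rcases Nat.eq_zero_or_pos (lev B F Z) with h0 | h0
  · rw [h0]; exact Nat.zero_le _
  · obtain ⟨e, h1, h2, h3⟩ := exists_lev B F Z h0
    have h4 : Disjoint (e ∪ {u}) F := by
      rw [Finset.disjoint_union_left]
      exact ⟨h1, by simpa using hu⟩
    have h5 : (Jset (e ∪ {u}) : Finset (Pt m k)) ⊆ Z ∩ J u := by
      rw [Jset_union, Jset_singleton]
      exact Finset.inter_subset_inter h2 (Finset.Subset.refl _)
    have h6 := le_lev B h4 h5
    have h7 : Nat.size (e ∪ {u}).card ≤ Nat.size e.card + 1 := by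
      refine le_trans (size_mono ?_) (size_succ_le e.card)
      refine le_trans (Finset.card_union_le _ _) ?_
      simp
    rw [h3]
    omega

/-- approximate supermodularity of the level -/
theorem lev_supermodular (B : ℕ) (F : Finset (Fin m)) (X C : Finset (Pt m k)) :
    lev B F X + lev B F C ≤ lev B F (X ∩ C) + lev B F (X ∪ C) + 1 := by
  rcases Nat.eq_zero_or_pos (lev B F X) with h0 | h0
  · have := lev_mono B F (Z := C) (Z' := X ∪ C) Finset.subset_union_right
    omega
  rcases Nat.eq_zero_or_pos (lev B F C) with h0' | h0'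
  · have := lev_mono B F (Z := X) (Z' := X ∪ C) Finset.subset_union_left
    omega
  obtain ⟨e, h1, h2, h3⟩ := exists_lev B F X h0
  obtain ⟨e', h1', h2', h3'⟩ := exists_lev B F C h0'
  have hI : (Jset (e ∪ e') : Finset (Pt m k)) ⊆ X ∩ C := by
    rw [Jset_union]; exact Finset.inter_subset_inter h2 h2'
  have hd : Disjoint (e ∪ e') F := by
    rw [Finset.disjoint_union_left]; exact ⟨h1, h1'⟩
  have h6 := le_lev B hd hI
  have h7 : (e ∪ e').card ≤ e.card + e'.card := Finset.card_union_le _ _
  rcases le_total e.card e'.card with hle | hle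
  · -- the smaller one is `e`
    have h8 : Nat.size (e ∪ e').card ≤ Nat.size e'.card + 1 :=
      le_trans (size_mono (by omega : (e ∪ e').card ≤ 2 * e'.card)) (size_two_mul_le _)
    have h9 := lev_mono B F (Z := X) (Z' := X ∪ C) Finset.subset_union_left
    omega
  · have h8 : Nat.size (e ∪ e').card ≤ Nat.size e.card + 1 :=
      le_trans (size_mono (by omega : (e ∪ e').card ≤ 2 * e.card)) (size_two_mul_le _)
    have h9 := lev_mono B F (Z := C) (Z' := X ∪ C) Finset.subset_union_right
    omega

/-- agreement set of two words -/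
def agr {Q : Type*} [DecidableEq Q] (a w : Pt m k → Q) : Finset (Pt m k) :=
  univ.filter (fun j => a j = w j)

theorem mem_agr {Q : Type*} [DecidableEq Q] {a w : Pt m k → Q} {j : Pt m k} :
    j ∈ agr a w ↔ a j = w j := by
  simp [agr]

theorem agr_self {Q : Type*} [DecidableEq Q] (w : Pt m k → Q) : agr w w = univ := by
  ext j; simp [mem_agr]

/-- the admissible forbidden sets -/
abbrev Forb (m B : ℕ) : Type := {F : Finset (Fin m) // F.card * B ≤ m}

/-- the columns -/
abbrev Col (m k B : ℕ) (Q : Type*) : Type _ := Forb m B × (Pt m k → Q)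

/-- the value of the functional `w` at a weight `lam` on the columns -/
noncomputable def val {Q : Type*} [DecidableEq Q] [Fintype Q] (B : ℕ) (lam : Col m k B Q → ℝ)
    (w : Pt m k → Q) : ℝ :=
  ∑ c : Col m k B Q, lam c * (lev B c.1.1 (agr c.2 w) : ℝ)

end Crest.Agent.R71
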