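import Crest.Prelude.Def_Polar
import Mathlib

set_option autoImplicit false

namespace Crest.Agent.R71

open Finset Pointwise Crest.AnalysisR

/-- the polar of the cube is contained in the unit ball of `ℓ¹` -/
theorem geom_polar_cube {n : ℕ} {y : EuclideanSpace ℝ (Fin n)}
    (hy : y ∈ polarSet {x : EuclideanSpace ℝ (Fin n) | ∀ i, |x i| ≤ 1}) : ∑ i, |y i| ≤ 1 := by
  have h := hy (WithLp.toLp 2 fun i => if 0 ≤ y i then (1 : ℝ) else -1) (by
    intro i
    show |if 0 ≤ y i then (1 : ℝ) else -1| ≤ 1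
    split_ifs <;> simp)
  rw [PiLp.inner_apply] at h
  refine le_trans (le_of_eq ?_) h
  refine Finset.sum_congr rfl fun i _ => ?_
  simp only [RCLike.inner_apply, conj_trivial]
  split_ifs with h0
  · rw [abs_of_nonneg h0]; ring
  · rw [abs_of_neg (not_le.1 h0)]; ring

/-- PIECE G. The geometry. Transfer `I` to `Fin n` by `Fintype.equivFin I`. Take
`K = convexHull ℝ ({±x_w} ∪ {±ε e_i})` with `ε = 1/(2a)` (a convex hull of a finite symmetric set:
compact, convex, symmetric, interior nonempty since it contains the cross-polytope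
`{y | ∑ |y i| ≤ ε}`, a neighbourhood of `0`).

Covering: `polarSet cube = {y | ∑ |y i| ≤ 1}` (test with the sign vector). For `y` in it put
`y⁺, y⁻ ≥ 0`, `∑ y⁺ ≤ 1`, `∑ y⁻ ≤ 1`; classes `(cls y⁺, cls y⁻) : Γ × Γ`; `t₁` = one
representative for each class that occurs (`t₁.card ≤ |Γ|^2`). If `y, y'` are in the same class then
`|⟨x_w, y - y'⟩| ≤ 1/a` and `|ε (y - y')_i| ≤ 2 ε = 1/a`, so `a • (y - y') ∈ polarSet K`, i.e.
`y ∈ y' +ᵥ a⁻¹ • polarSet K`.

Packing: a translate of the cube contains at most one of the points `x_w`, `w ∈ W` (two points of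
it differ by at most `2` in each coordinate), so `W.card ≤ t₂.card`. -/
theorem geom (a b : ℝ) (ha : 1 ≤ a) (hb : 1 ≤ b) {I : Type} [Fintype I] [Nonempty I]
    {Wt : Type} (W : Finset Wt) (x : Wt → I → ℝ)
    (hsep : ∀ w ∈ W, ∀ w' ∈ W, w ≠ w' → ∃ c, 2 < |x w c - x w' c|)
    {Γ : Type} [Fintype Γ] (cls : (I → ℝ) → Γ)
    (hcls : ∀ y y' : I → ℝ, (∀ c, 0 ≤ y c) → ∑ c, y c ≤ 1 → (∀ c, 0 ≤ y' c) → ∑ c, y' c ≤ 1 →
      cls y = cls y' → ∀ w ∈ W, |∑ c, y c * x w c - ∑ c, y' c * x w c| ≤ 1 / (2 * a))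
    (hcard : b * (2 * Real.log (Fintype.card Γ)) < Real.log W.card) :
    ∃ n : ℕ, 0 < n ∧ ∃ K : Set (EuclideanSpace ℝ (Fin n)),
      Convex ℝ K ∧ IsCompact K ∧ (interior K).Nonempty ∧ (∀ x ∈ K, -x ∈ K) ∧
      ∃ t₁ : Finset (EuclideanSpace ℝ (Fin n)),
        polarSet {x : EuclideanSpace ℝ (Fin n) | ∀ i, |x i| ≤ 1} ⊆
          ⋃ y ∈ t₁, (y +ᵥ a⁻¹ • polarSet K) ∧
        ∀ t₂ : Finset (EuclideanSpace ℝ (Fin n)),
          K ⊆ ⋃ x ∈ t₂, (x +ᵥ {z : EuclideanSpace ℝ (Fin n) | ∀ i, |z i| ≤ 1}) →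
          b * Real.log t₁.card < Real.log t₂.card := by
  classical
  have ha0 : 0 < a := by linarith
  obtain ⟨n, ⟨e⟩⟩ : ∃ n : ℕ, Nonempty (Fin n ≃ I) := ⟨_, ⟨(Fintype.equivFin I).symm⟩⟩
  have hn : 0 < n := by
    have : Nonempty (Fin n) := ⟨e.symm (Classical.arbitrary I)⟩
    exact Fin.pos (Classical.arbitrary (Fin n))
  refine ⟨n, hn, ?_⟩
  set ε : ℝ := 1 / (2 * a) with hε
  have hε0 : 0 < ε := by positivity
  set X : Wt → EuclideanSpace ℝ (Fin n) := fun w => WithLp.toLp 2 fun i => x w (e i) with hX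
  have hXi : ∀ w i, X w i = x w (e i) := fun w i => rfl
  set S : Set (EuclideanSpace ℝ (Fin n)) :=
    ((X '' (W : Set Wt)) ∪ (fun w => -X w) '' (W : Set Wt)) ∪
      (Set.range (fun i : Fin n => EuclideanSpace.single i ε) ∪
        Set.range (fun i : Fin n => -EuclideanSpace.single i ε)) with hS
  have hSfin : S.Finite := by
    refine ((W.finite_toSet.image _).union (W.finite_toSet.image _)).union
      ((Set.finite_range _).union (Set.finite_range _))
  have hSneg : -S = S := by
    ext z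
    simp only [hS, Set.mem_neg, Set.mem_union, Set.mem_image, Set.mem_range, Finset.mem_coe]
    constructor
    · rintro ((⟨w, hw, h⟩ | ⟨w, hw, h⟩) | (⟨i, h⟩ | ⟨i, h⟩))
      · exact Or.inl (Or.inr ⟨w, hw, by rw [h, neg_neg]⟩)
      · exact Or.inl (Or.inl ⟨w, hw, neg_injective h⟩)
      · exact Or.inr (Or.inr ⟨i, by rw [h, neg_neg]⟩)
      · exact Or.inr (Or.inl ⟨i, neg_injective h⟩)
    · rintro ((⟨w, hw, h⟩ | ⟨w, hw, h⟩) | (⟨i, h⟩ | ⟨i, h⟩))
      · exact Or.inl (Or.inr ⟨w, hw, by rw [h]⟩)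
      · exact Or.inl (Or.inl ⟨w, hw, by rw [← h, neg_neg]⟩)
      · exact Or.inr (Or.inr ⟨i, by rw [h]⟩)
      · exact Or.inr (Or.inl ⟨i, by rw [← h, neg_neg]⟩)
  set K : Set (EuclideanSpace ℝ (Fin n)) := convexHull ℝ S with hK
  have hKc : Convex ℝ K := convex_convexHull ℝ S
  have hSK : S ⊆ K := subset_convexHull ℝ S
  have hXK : ∀ w ∈ W, X w ∈ K := fun w hw =>
    hSK (Or.inl (Or.inl ⟨w, by exact_mod_cast hw, rfl⟩))
  have hKneg : ∀ z ∈ K, -z ∈ K := by
    intro z hz
    have : K = -K := by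
      rw [hK]
      conv_lhs => rw [← hSneg]
      rw [convexHull_neg]
    rw [this, Set.mem_neg, neg_neg]
    exact hz
  have hseg : ∀ i : Fin n, ∀ t : ℝ, |t| ≤ ε → EuclideanSpace.single i t ∈ K := by
    intro i t ht
    have h1 : EuclideanSpace.single i ε ∈ K := hSK (Or.inr (Or.inl ⟨i, rfl⟩))
    have h2 : -EuclideanSpace.single i ε ∈ K := hSK (Or.inr (Or.inr ⟨i, rfl⟩))
    have h3 := hKc h1 h2 (a := (1 + t / ε) / 2) (b := (1 - t / ε) / 2)
      (by
        have : -1 ≤ t / ε := by rw [le_div_iff₀ hε0]; linarith [neg_abs_le t]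
        linarith)
      (by
        have : t / ε ≤ 1 := by rw [div_le_iff₀ hε0]; linarith [le_abs_self t]
        linarith)
      (by ring)
    convert h3 using 1
    ext j
    by_cases hj : j = i
    · subst hj
      simp
      field_simp
      ring
    · simp [hj]
  have hint : (interior K).Nonempty := by
    refine ⟨0, ?_⟩
    rw [mem_interior]
    refine ⟨{z | ∀ i, |z i| < ε / n}, ?_, ?_, ?_⟩
    · intro z hz
      have h1 : z = ∑ i : Fin n, ((1 : ℝ) / n) • EuclideanSpace.single i ((n : ℝ) * z i) := by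
        ext j
        rw [WithLp.ofLp_sum, Finset.sum_apply, Finset.sum_eq_single j]
        · have : (n : ℝ) ≠ 0 := by exact_mod_cast hn.ne'
          simp
          field_simp
        · intro i _ hij
          simp [hij.symm]
        · intro h; exact absurd (Finset.mem_univ _) h
      rw [h1]
      refine hKc.sum_mem (fun i _ => by positivity) ?_ (fun i _ => hseg i _ ?_)
      · have : (n : ℝ) ≠ 0 := by exact_mod_cast hn.ne'
        simp
        field_simp
      · have hn' : (0 : ℝ) < n := by exact_mod_cast hn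
        rw [abs_mul, abs_of_pos hn']
        have := (hz i).le
        rw [le_div_iff₀ hn'] at this
        linarith
    · have : {z : EuclideanSpace ℝ (Fin n) | ∀ i, |z i| < ε / n} =
          ⋂ i, {z : EuclideanSpace ℝ (Fin n) | |z i| < ε / n} := by
        ext z; simp
      rw [this]
      refine isOpen_iInter_of_finite fun i => ?_
      exact isOpen_lt ((EuclideanSpace.proj (𝕜 := ℝ) i).continuous.abs) continuous_const
    · intro i
      have hn' : (0 : ℝ) < n := by exact_mod_cast hn
      simp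
      positivity
  refine ⟨K, hKc, Set.Finite.isCompact_convexHull (𝕜 := ℝ) hSfin, hint, hKneg, ?_⟩
  set P : Set (EuclideanSpace ℝ (Fin n)) :=
    polarSet {x : EuclideanSpace ℝ (Fin n) | ∀ i, |x i| ≤ 1} with hP
  have hP1 : ∀ y ∈ P, ∑ i, |y i| ≤ 1 := fun y hy => geom_polar_cube hy
  set yp : EuclideanSpace ℝ (Fin n) → I → ℝ := fun y c => max (y (e.symm c)) 0 with hyp
  set ym : EuclideanSpace ℝ (Fin n) → I → ℝ := fun y c => max (-y (e.symm c)) 0 with hym
  have hyp0 : ∀ y c, 0 ≤ yp y c := fun y c => le_max_right _ _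
  have hym0 : ∀ y c, 0 ≤ ym y c := fun y c => le_max_right _ _
  have hsumI : ∀ f : Fin n → ℝ, ∑ c : I, f (e.symm c) = ∑ i, f i := fun f =>
    Equiv.sum_comp e.symm f
  have hyp1 : ∀ y ∈ P, ∑ c, yp y c ≤ 1 := by
    intro y hy
    refine le_trans ?_ (hP1 y hy)
    rw [← hsumI fun i => |y i|]
    exact Finset.sum_le_sum fun c _ => max_le (le_abs_self _) (abs_nonneg _)
  have hym1 : ∀ y ∈ P, ∑ c, ym y c ≤ 1 := by
    intro y hy
    refine le_trans ?_ (hP1 y hy)
    rw [← hsumI fun i => |y i|]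
    exact Finset.sum_le_sum fun c _ => max_le (neg_le_abs _) (abs_nonneg _)
  have hpm : ∀ y c, yp y c - ym y c = y (e.symm c) := by
    intro y c
    simp only [hyp, hym]
    rcases le_total 0 (y (e.symm c)) with h | h
    · rw [max_eq_left h, max_eq_right (by linarith)]; ring
    · rw [max_eq_right h, max_eq_left (by linarith)]; ring
  set κ : EuclideanSpace ℝ (Fin n) → Γ × Γ := fun y => (cls (yp y), cls (ym y)) with hκ
  have key : ∀ y ∈ P, ∀ y' ∈ P, κ y = κ y' → a • (y - y') ∈ polarSet K := by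
    intro y hy y' hy' hyy
    have hc1 : cls (yp y) = cls (yp y') := congrArg Prod.fst hyy
    have hc2 : cls (ym y) = cls (ym y') := congrArg Prod.snd hyy
    have hSle : ∀ s ∈ S, inner ℝ s (a • (y - y')) ≤ 1 := by
      have hXle : ∀ w ∈ W, |inner ℝ (X w) (a • (y - y'))| ≤ 1 := by
        intro w hw
        have e1 : inner ℝ (X w) (a • (y - y')) =
            a * ((∑ c, yp y c * x w c - ∑ c, yp y' c * x w c) -
              (∑ c, ym y c * x w c - ∑ c, ym y' c * x w c)) := by
          rw [inner_smul_right, PiLp.inner_apply]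
          congr 1
          rw [← hsumI fun i => inner ℝ (X w i) ((y - y') i)]
          rw [← Finset.sum_sub_distrib, ← Finset.sum_sub_distrib, ← Finset.sum_sub_distrib]
          refine Finset.sum_congr rfl fun c _ => ?_
          have h1 := hpm y c
          have h2 := hpm y' c
          simp only [RCLike.inner_apply, conj_trivial, hXi, Equiv.apply_symm_apply]
          rw [PiLp.sub_apply, ← h1, ← h2]
          ring
        have b1 := hcls (yp y) (yp y') (hyp0 y) (hyp1 y hy) (hyp0 y') (hyp1 y' hy') hc1 w hw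
        have b2 := hcls (ym y) (ym y') (hym0 y) (hym1 y hy) (hym0 y') (hym1 y' hy') hc2 w hw
        rw [e1, abs_mul, abs_of_pos ha0]
        calc a * |(∑ c, yp y c * x w c - ∑ c, yp y' c * x w c) -
              (∑ c, ym y c * x w c - ∑ c, ym y' c * x w c)|
            ≤ a * (1 / (2 * a) + 1 / (2 * a)) := by
              refine mul_le_mul_of_nonneg_left ?_ ha0.le
              exact (abs_sub _ _).trans (add_le_add b1 b2)
          _ = 1 := by field_simp; ring
      have hEle : ∀ i : Fin n, |inner ℝ (EuclideanSpace.single i ε) (a • (y - y'))| ≤ 1 := by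
        intro i
        have h1 : |y i| ≤ 1 := le_trans
          (Finset.single_le_sum (f := fun i => |y i|) (fun _ _ => abs_nonneg _)
            (Finset.mem_univ i)) (hP1 y hy)
        have h2 : |y' i| ≤ 1 := le_trans
          (Finset.single_le_sum (f := fun i => |y' i|) (fun _ _ => abs_nonneg _)
            (Finset.mem_univ i)) (hP1 y' hy')
        have e1 : inner ℝ (EuclideanSpace.single i ε) (a • (y - y')) = ε * (a * (y i - y' i)) := by
          rw [EuclideanSpace.inner_single_left]
          simp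
        rw [e1, abs_mul, abs_mul, abs_of_pos ha0, abs_of_pos hε0]
        calc ε * (a * |y i - y' i|) ≤ ε * (a * (1 + 1)) := by
              refine mul_le_mul_of_nonneg_left (mul_le_mul_of_nonneg_left ?_ ha0.le) hε0.le
              exact (abs_sub _ _).trans (add_le_add h1 h2)
          _ = 1 := by rw [hε]; field_simp; ring
      rintro s ((⟨w, hw, rfl⟩ | ⟨w, hw, rfl⟩) | (⟨i, rfl⟩ | ⟨i, rfl⟩))
      · exact (le_abs_self _).trans (hXle w (by exact_mod_cast hw))
      · rw [inner_neg_left]
        exact (neg_le_abs _).trans (hXle w (by exact_mod_cast hw))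
      · exact (le_abs_self _).trans (hEle i)
      · rw [inner_neg_left]
        exact (neg_le_abs _).trans (hEle i)
    intro z hz
    have hconv : Convex ℝ {z : EuclideanSpace ℝ (Fin n) | inner ℝ z (a • (y - y')) ≤ 1} := by
      intro u hu v hv α β hα hβ hαβ
      simp only [Set.mem_ofPred_eq] at hu hv ⊢
      rw [inner_add_left, inner_smul_left, inner_smul_left]
      simp only [conj_trivial]
      calc α * inner ℝ u (a • (y - y')) + β * inner ℝ v (a • (y - y')) ≤ α * 1 + β * 1 :=
            add_le_add (mul_le_mul_of_nonneg_left hu hα) (mul_le_mul_of_nonneg_left hv hβ)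
        _ = 1 := by linarith
    exact (convexHull_min (fun s hs => hSle s hs) hconv) hz
  set t₁ : Finset (EuclideanSpace ℝ (Fin n)) :=
    (Finset.univ : Finset (Γ × Γ)).image
      (fun g => if h : ∃ y ∈ P, κ y = g then h.choose else 0) with ht₁
  have ht₁card : t₁.card ≤ (Fintype.card Γ) ^ 2 := by
    refine Finset.card_image_le.trans (le_of_eq ?_)
    rw [Finset.card_univ, Fintype.card_prod, sq]
  refine ⟨t₁, ?_, ?_⟩
  · intro y hy
    have hex : ∃ y' ∈ P, κ y' = κ y := ⟨y, hy, rfl⟩
    rw [Set.mem_iUnion₂]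
    refine ⟨hex.choose, ?_, ?_⟩
    · rw [ht₁, Finset.mem_image]
      exact ⟨κ y, Finset.mem_univ _, dif_pos hex⟩
    · obtain ⟨h1, h2⟩ := hex.choose_spec
      rw [Set.mem_vadd_set]
      refine ⟨y - hex.choose, ?_, ?_⟩
      · rw [Set.mem_smul_set]
        refine ⟨a • (y - hex.choose), key y hy _ h1 h2.symm, ?_⟩
        rw [smul_smul, inv_mul_cancel₀ ha0.ne', one_smul]
      · simp
  · intro t₂ ht₂
    have hcov : ∀ w ∈ W, ∃ u ∈ t₂, ∀ i, |X w i - u i| ≤ 1 := by
      intro w hw
      have := ht₂ (hXK w hw)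
      rw [Set.mem_iUnion₂] at this
      obtain ⟨u, hu, hmem⟩ := this
      rw [Set.mem_vadd_set] at hmem
      obtain ⟨z, hz, hzu⟩ := hmem
      refine ⟨u, hu, fun i => ?_⟩
      rw [← hzu]
      simpa using hz i
    choose! f hf1 hf2 using hcov
    have hcard2 : W.card ≤ t₂.card := by
      refine Finset.card_le_card_of_injOn f (fun w hw => hf1 w hw) ?_
      intro w hw w' hw' hff
      by_contra hne
      obtain ⟨c, hc⟩ := hsep w hw w' hw' hne
      have h1 := hf2 w hw (e.symm c)
      have h2 := hf2 w' hw' (e.symm c)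
      rw [← hff] at h2
      rw [hXi, Equiv.apply_symm_apply] at h1 h2
      have : |x w c - x w' c| ≤ 2 := by
        calc |x w c - x w' c| = |(x w c - f w (e.symm c)) - (x w' c - f w (e.symm c))| := by
              congr 1; ring
          _ ≤ |x w c - f w (e.symm c)| + |x w' c - f w (e.symm c)| := abs_sub _ _
          _ ≤ 2 := by linarith
      linarith
    have hlogΓ : 0 ≤ Real.log (Fintype.card Γ : ℝ) := Real.log_natCast_nonneg _
    have hWlog : 0 < Real.log W.card := lt_of_le_of_lt (by positivity) hcard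
    have hWpos : (0 : ℝ) < W.card := by
      rcases Nat.eq_zero_or_pos W.card with h | h
      · rw [h] at hWlog; simp at hWlog
      · exact_mod_cast h
    have hlog1 : Real.log t₁.card ≤ 2 * Real.log (Fintype.card Γ) := by
      rcases Nat.eq_zero_or_pos t₁.card with h | h
      · rw [h]; simp; positivity
      · calc Real.log t₁.card ≤ Real.log ((Fintype.card Γ : ℝ) ^ 2) :=
              Real.log_le_log (by exact_mod_cast h) (by exact_mod_cast ht₁card)
          _ = 2 * Real.log (Fintype.card Γ) := by rw [Real.log_pow]; norm_num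
    calc b * Real.log t₁.card ≤ b * (2 * Real.log (Fintype.card Γ)) :=
          mul_le_mul_of_nonneg_left hlog1 (by linarith)
      _ < Real.log W.card := hcard
      _ ≤ Real.log t₂.card := Real.log_le_log hWpos (by exact_mod_cast hcard2)

end Crest.Agent.R71
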