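import Crest.Agent.R71.Defs

namespace Crest.Agent.R71

open Finset

variable {m k : ℕ}

/-- zeroing the coordinates in `e` -/
def zer (e : Finset (Fin m)) (j : Pt m k) : Pt m k := fun u => if u ∈ e then 0 else j u

theorem zer_mem {e : Finset (Fin m)} (j : Pt m k) : zer e j ∈ Jset e := by
  rw [mem_Jset]
  intro u hu
  simp [zer, hu]

/-- the points lying in no `Jset e`, `e ∈ E` -/
def outs (E : Finset (Finset (Fin m))) : Finset (Pt m k) :=
  univ.filter (fun j => ∀ e ∈ E, j ∉ Jset e)

theorem mem_outs {E : Finset (Finset (Fin m))} {j : Pt m k} :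
    j ∈ (outs E : Finset (Pt m k)) ↔ ∀ e ∈ E, j ∉ Jset e := by
  simp [outs]

theorem card_fibre (e : Finset (Fin m)) (S : Finset (Pt m k)) (b : Pt m k) :
    (S.filter (fun a => zer e a = b)).card ≤ (k + 1) ^ e.card := by
  classical
  have h1 : (S.filter (fun a => zer e a = b)).card ≤
      (univ : Finset (e → Fin (k + 1))).card := by
    apply Finset.card_le_card_of_injOn (fun a => fun u : e => a u.1)
    · intro a _
      simp
    · intro a ha a' ha' h
      have ha1 : zer e a = b := (mem_filter.mp (mem_coe.mp ha)).2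
      have ha2 : zer e a' = b := (mem_filter.mp (mem_coe.mp ha')).2
      funext u
      by_cases hu : u ∈ e
      · exact congrFun h ⟨u, hu⟩
      · have h3 : zer e a u = zer e a' u := by rw [ha1, ha2]
        simpa [zer, hu] using h3
  have h2 : (univ : Finset (e → Fin (k + 1))).card = (k + 1) ^ e.card := by
    simp
  rw [h2] at h1
  exact h1

theorem card_outs_step (E : Finset (Finset (Fin m))) (e : Finset (Fin m)) (τ : ℕ)
    (he : e.card ≤ τ) (hd : ∀ e' ∈ E, Disjoint e' e) :
    (k + 1) ^ τ * (outs (insert e E) : Finset (Pt m k)).card ≤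
      ((k + 1) ^ τ - 1) * (outs E : Finset (Pt m k)).card := by
  classical
  have h1 : (outs E : Finset (Pt m k)).card ≤
      (k + 1) ^ τ * ((outs E : Finset (Pt m k)) ∩ Jset e).card := by
    apply Finset.card_le_mul_card_image_of_maps_to (f := zer e)
    · intro j hj
      rw [mem_inter]
      refine ⟨?_, zer_mem j⟩
      rw [mem_outs] at hj ⊢
      intro e' he' hmem
      apply hj e' he'
      rw [mem_Jset] at hmem ⊢
      intro u hu
      have h2 := hmem u hu
      have h3 : u ∉ e := Finset.disjoint_left.mp (hd e' he') hu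
      simpa [zer, h3] using h2
    · intro b _
      exact (card_fibre e _ b).trans (Nat.pow_le_pow_right (Nat.succ_pos k) he)
  have h2 : (outs (insert e E) : Finset (Pt m k)) = (outs E : Finset (Pt m k)) \ Jset e := by
    ext j
    rw [mem_sdiff, mem_outs, mem_outs]
    simp only [mem_insert, forall_eq_or_imp]
    tauto
  have h3 : (outs (insert e E) : Finset (Pt m k)).card +
      ((outs E : Finset (Pt m k)) ∩ Jset e).card = (outs E : Finset (Pt m k)).card := by
    rw [h2]
    exact Finset.card_sdiff_add_card_inter _ _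
  set K := (k + 1) ^ τ with hK
  set x := (outs (insert e E) : Finset (Pt m k)).card
  set y := ((outs E : Finset (Pt m k)) ∩ Jset e).card
  set z := (outs E : Finset (Pt m k)).card
  have hK1 : 1 ≤ K := Nat.one_le_pow _ _ (Nat.succ_pos k)
  obtain ⟨L, hL⟩ : ∃ L, K = L + 1 := ⟨K - 1, by omega⟩
  rw [hL] at h1 ⊢
  simp only [Nat.add_sub_cancel]
  nlinarith

theorem card_outs (τ : ℕ) (E : Finset (Finset (Fin m)))
    (hE : ∀ e ∈ E, e.card ≤ τ) (hd : (E : Set (Finset (Fin m))).PairwiseDisjoint id) :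
    ((k + 1) ^ τ) ^ E.card * (outs E : Finset (Pt m k)).card ≤
      ((k + 1) ^ τ - 1) ^ E.card * (k + 1) ^ m := by
  classical
  induction E using Finset.induction_on with
  | empty =>
    simp only [Finset.card_empty, pow_zero, one_mul]
    refine le_trans (Finset.card_le_univ _) ?_
    simp
  | insert e E heE ih =>
    have ih' := ih (fun e' he' => hE e' (mem_insert_of_mem he'))
      (hd.subset (by simp [Finset.coe_insert]))
    have h1 := card_outs_step (k := k) E e τ (hE e (mem_insert_self e E)) (by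
      intro e' he'
      have hne : e' ≠ e := fun h => heE (h ▸ he')
      exact hd (by simp [he']) (by simp) hne)
    rw [Finset.card_insert_of_notMem heE, pow_succ, pow_succ]
    calc ((k + 1) ^ τ) ^ E.card * (k + 1) ^ τ * (outs (insert e E) : Finset (Pt m k)).card
        = ((k + 1) ^ τ) ^ E.card * ((k + 1) ^ τ * (outs (insert e E) : Finset (Pt m k)).card) := by
          ring
      _ ≤ ((k + 1) ^ τ) ^ E.card * (((k + 1) ^ τ - 1) * (outs E : Finset (Pt m k)).card) :=
          Nat.mul_le_mul_left _ h1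
      _ = ((k + 1) ^ τ - 1) * (((k + 1) ^ τ) ^ E.card * (outs E : Finset (Pt m k)).card) := by
          ring
      _ ≤ ((k + 1) ^ τ - 1) * (((k + 1) ^ τ - 1) ^ E.card * (k + 1) ^ m) :=
          Nat.mul_le_mul_left _ ih'
      _ = ((k + 1) ^ τ - 1) ^ E.card * ((k + 1) ^ τ - 1) * (k + 1) ^ m := by ring

theorem exists_big (K : ℕ) (hK : 1 ≤ K) : ∃ M0 : ℕ, ∀ n, M0 ≤ n → 2 * (K - 1) ^ n < K ^ n := by
  have hKr : (1 : ℝ) ≤ K := by exact_mod_cast hK
  have hKpos : (0 : ℝ) < K := by linarith
  have h0 : (0 : ℝ) ≤ ((K - 1 : ℕ) : ℝ) / K := by positivity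
  have h1 : ((K - 1 : ℕ) : ℝ) / K < 1 := by
    rw [div_lt_one hKpos]
    push_cast [hK]
    linarith
  have h2 := tendsto_pow_atTop_nhds_zero_of_lt_one h0 h1
  have h3 := (h2.eventually_lt_const (show (0:ℝ) < 1 / 2 by norm_num))
  obtain ⟨M0, hM0⟩ := Filter.eventually_atTop.mp h3
  refine ⟨M0, fun n hn => ?_⟩
  have h4 := hM0 n hn
  rw [div_pow, div_lt_iff₀ (by positivity)] at h4
  have h5 : 2 * ((K - 1 : ℕ) : ℝ) ^ n < (K : ℝ) ^ n := by linarith
  exact_mod_cast h5

/-- PIECE Z. For `m` large, every set of density at most `1/2` has level zero for some small `F`.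

Proof. Put `τ = 2^(B-1)` (note `B - size |e| > 0 ↔ |e| < 2^(B-1)`, `Nat.size_le`), `δ = (k+1)^(-τ)`.
Call `ℰ : Finset (Finset (Fin m))` good if its members are pairwise disjoint, of card `< τ` and
`Jset e ⊆ Z` for `e ∈ ℰ`. Counting: the number of points outside all `Jset e`, `e ∈ ℰ`, is at most
`(1-δ)^|ℰ| (k+1)^m` (induction on `ℰ`: if `S` is the set of points outside all `Jset e'`, `e' ∈ ℰ`,
then zeroing the coordinates in `e` maps `S` to `S ∩ Jset e` with fibres of size `≤ (k+1)^|e|`).
As these points contain the complement of `Z`, `(1-δ)^|ℰ| ≥ 1/2`, so `|ℰ| ≤ M0`. Take `ℰ` good of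
maximal cardinality, `F = ⋃ ℰ`, `|F| ≤ M0 τ`. If `lev B F Z > 0` then `exists_lev` gives `e`
disjoint from `F`; `insert e ℰ` is good and larger (`e ≠ ∅` since `Z ≠ univ`). So `m0 = M0 τ B`
works. -/
theorem exists_forb (B k : ℕ) : ∃ m0 : ℕ, ∀ m : ℕ, m0 ≤ m → ∀ Z : Finset (Pt m k),
    2 * Z.card ≤ (k + 1) ^ m → ∃ F : Finset (Fin m), F.card * B ≤ m ∧ lev B F Z = 0 := by
  classical
  obtain ⟨M0, hM0⟩ := exists_big ((k + 1) ^ (2 ^ (B - 1))) (Nat.one_le_pow _ _ (Nat.succ_pos k))
  refine ⟨M0 * 2 ^ (B - 1) * B, fun m hm Z hZ => ?_⟩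
  set τ := 2 ^ (B - 1) with hτ
  -- the good families
  let good : Finset (Finset (Finset (Fin m))) := univ.filter (fun E =>
    (∀ e ∈ E, e.card ≤ τ) ∧ (∀ e ∈ E, Jset e ⊆ Z) ∧ (E : Set (Finset (Fin m))).PairwiseDisjoint id)
  have hgood : ∀ E, E ∈ good ↔ (∀ e ∈ E, e.card ≤ τ) ∧ (∀ e ∈ E, Jset e ⊆ Z) ∧
      (E : Set (Finset (Fin m))).PairwiseDisjoint id := by
    intro E
    simp only [good, mem_filter, mem_univ, true_and]
  have hne : good.Nonempty := ⟨∅, by rw [hgood]; simp⟩
  obtain ⟨E, hE, hmax⟩ := Finset.exists_max_image good Finset.card hne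
  obtain ⟨hE1, hE2, hE3⟩ := (hgood E).mp hE
  have hpos : 0 < (k + 1) ^ m := pow_pos (Nat.succ_pos k) m
  -- bound on the cardinality of `E`
  have hcard : E.card < M0 := by
    by_contra hcon
    rw [not_lt] at hcon
    have h1 := hM0 _ hcon
    have h2 := card_outs (k := k) τ E hE1 hE3
    have h3 : (univ : Finset (Pt m k)) \ Z ⊆ outs E := by
      intro j hj
      rw [mem_outs]
      intro e he hje
      rw [mem_sdiff] at hj
      exact hj.2 (hE2 e he hje)
    have h4 := Finset.card_le_card h3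
    have h5 : ((univ : Finset (Pt m k)) \ Z).card + Z.card = (k + 1) ^ m := by
      rw [Finset.card_sdiff_add_card_eq_card (Finset.subset_univ Z)]
      simp
    have h6 : (k + 1) ^ m ≤ 2 * (outs E : Finset (Pt m k)).card := by omega
    have h7 : ((k + 1) ^ τ) ^ E.card * (k + 1) ^ m ≤
        2 * (((k + 1) ^ τ - 1) ^ E.card * (k + 1) ^ m) := by
      calc ((k + 1) ^ τ) ^ E.card * (k + 1) ^ m
          ≤ ((k + 1) ^ τ) ^ E.card * (2 * (outs E : Finset (Pt m k)).card) :=
            Nat.mul_le_mul_left _ h6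
        _ = 2 * (((k + 1) ^ τ) ^ E.card * (outs E : Finset (Pt m k)).card) := by ring
        _ ≤ _ := Nat.mul_le_mul_left _ h2
    have h8 : 2 * ((k + 1) ^ τ - 1) ^ E.card * (k + 1) ^ m <
        ((k + 1) ^ τ) ^ E.card * (k + 1) ^ m := Nat.mul_lt_mul_of_pos_right h1 hpos
    have h9 : 2 * (((k + 1) ^ τ - 1) ^ E.card * (k + 1) ^ m) =
        2 * ((k + 1) ^ τ - 1) ^ E.card * (k + 1) ^ m := by ring
    omega
  have hFcard : (E.biUnion id).card ≤ M0 * τ := by
    refine le_trans (Finset.card_biUnion_le_card_mul E id τ (fun e he => hE1 e he)) ?_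
    exact Nat.mul_le_mul_right _ hcard.le
  refine ⟨E.biUnion id, le_trans (Nat.mul_le_mul_right _ hFcard) hm, ?_⟩
  by_contra hlev
  obtain ⟨e, he1, he2, he3⟩ := exists_lev B _ Z (Nat.pos_of_ne_zero hlev)
  have hB : 0 < B - Nat.size e.card := by
    rw [← he3]; exact Nat.pos_of_ne_zero hlev
  have hec : e.card ≤ τ := by
    have h1 : Nat.size e.card ≤ B - 1 := by omega
    rw [Nat.size_le] at h1
    exact h1.le
  have hene : e ≠ ∅ := by
    intro h
    rw [h, Jset_empty] at he2
    have h1 := Finset.card_le_card he2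
    have h2 : (univ : Finset (Pt m k)).card = (k + 1) ^ m := by simp
    omega
  have hsub : ∀ e' ∈ E, e' ⊆ E.biUnion id := fun e' he' =>
    Finset.subset_biUnion_of_mem id he'
  have heE : e ∉ E := by
    intro h
    have h1 : Disjoint e e := he1.mono_right (hsub e h)
    rw [disjoint_self] at h1
    exact hene h1
  have hins : insert e E ∈ good := by
    rw [hgood]
    refine ⟨?_, ?_, ?_⟩
    · intro e' he'
      rcases mem_insert.mp he' with rfl | h
      · exact hec
      · exact hE1 e' h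
    · intro e' he'
      rcases mem_insert.mp he' with rfl | h
      · exact he2
      · exact hE2 e' h
    · rw [Finset.coe_insert]
      apply Set.PairwiseDisjoint.insert hE3
      intro e' he' _
      exact he1.mono_right (hsub e' he')
  have := hmax _ hins
  rw [Finset.card_insert_of_notMem heE] at this
  omega

end Crest.Agent.R71
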